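import Vale.Agent.P125.P59.Defs58

set_option linter.unusedSectionVars false
set_option linter.unusedVariables false

/-!
# P125 Poly: the scalar end, statement `StCore` of `Defs58` (race copy of helper21)
The file never mentions the name of the sum of the `Qk`, so it survives a renaming of it.
-/

namespace Vale.Agent.P125.P59

open scoped BigOperators
open Vale.Agent.P125.Dich

lemma core_scalar_21 (q : ℕ → ℝ) (U : ℝ) (hU : 0 ≤ U) (t : ℕ) (ht : 1 ≤ t) (X : ℝ)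
    (hX : X ≤ 2 * t * U + 2 * ∑ r ∈ Finset.range t, (q (t - 1 - r) + q r))
    (hq : ∀ τ t' : ℕ, 1 ≤ τ →
      q t' ≤ (Real.sqrt (t' * τ) + τ + (3 / 2) * t' * (τ : ℝ) ^ (-(1 / 4) : ℝ)) * U) :
    X ≤ 24 * (t : ℝ) ^ (11 / 6 : ℝ) * U := by
  have hT1 : (1:ℝ) ≤ t := by exact_mod_cast ht
  have hT0 : (0:ℝ) < t := by linarith
  set a : ℝ := (t:ℝ) ^ (1/6 : ℝ) with ha
  have ha1 : 1 ≤ a := Real.one_le_rpow hT1 (by norm_num)
  have ha0 : 0 < a := by linarith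
  have ha6 : a ^ 6 = t := by
    rw [ha, ← Real.rpow_natCast, ← Real.rpow_mul hT0.le]; norm_num
  have ha11 : (t:ℝ) ^ (11/6 : ℝ) = a ^ 11 := by
    rw [ha, ← Real.rpow_natCast, ← Real.rpow_mul hT0.le]; norm_num
  set τ : ℕ := ⌈a ^ 4⌉₊ with hτ
  have hτ_lo : a ^ 4 ≤ τ := Nat.le_ceil _
  have hτ_hi : (τ:ℝ) ≤ 2 * a ^ 4 := by
    have h0 := (Nat.ceil_lt_add_one (by positivity : 0 ≤ a ^ 4)).le
    have h1 : 1 ≤ a ^ 4 := one_le_pow₀ ha1
    linarith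
  have hτ1 : 1 ≤ τ := by
    have : (1:ℝ) ≤ τ := le_trans (one_le_pow₀ ha1) hτ_lo
    exact_mod_cast this
  have hpw : (τ:ℝ) ^ (-(1/4) : ℝ) ≤ a⁻¹ := by
    have h1 : (τ:ℝ) ^ (-(1/4) : ℝ) ≤ (a ^ 4) ^ (-(1/4) : ℝ) :=
      Real.rpow_le_rpow_of_nonpos (by positivity) hτ_lo (by norm_num)
    have h2 : (a ^ 4) ^ (-(1/4) : ℝ) = a⁻¹ := by
      rw [← Real.rpow_natCast a 4, ← Real.rpow_mul ha0.le, ← Real.rpow_neg_one a]
      norm_num
    rw [h2] at h1; exact h1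
  have hqb : ∀ t' : ℕ, t' ≤ t → q t' ≤ 5 * a ^ 5 * U := by
    intro t' ht'
    have ht'r : (t':ℝ) ≤ a ^ 6 := by rw [ha6]; exact_mod_cast ht'
    have ht'0 : (0:ℝ) ≤ t' := Nat.cast_nonneg _
    refine (hq τ t' hτ1).trans (mul_le_mul_of_nonneg_right ?_ hU)
    have s1 : Real.sqrt (t' * τ) ≤ (3/2) * a ^ 5 := by
      apply Real.sqrt_le_iff.mpr
      refine ⟨by positivity, ?_⟩
      have h3 : (t':ℝ) * τ ≤ a ^ 6 * (2 * a ^ 4) :=
        mul_le_mul ht'r hτ_hi (Nat.cast_nonneg _) (by positivity)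
      nlinarith [pow_pos ha0 10]
    have s2 : (τ:ℝ) ≤ 2 * a ^ 5 := by
      have : a ^ 4 ≤ a ^ 5 := pow_le_pow_right₀ ha1 (by norm_num)
      linarith
    have s3 : (3/2) * t' * (τ:ℝ) ^ (-(1/4) : ℝ) ≤ (3/2) * a ^ 5 := by
      have hp0 : 0 ≤ (τ:ℝ) ^ (-(1/4) : ℝ) := Real.rpow_nonneg (Nat.cast_nonneg _) _
      have h4 : (t':ℝ) * (τ:ℝ) ^ (-(1/4) : ℝ) ≤ a ^ 6 * a⁻¹ :=
        mul_le_mul ht'r hpw hp0 (by positivity)
      have e : a ^ 6 * a⁻¹ = a ^ 5 := by field_simp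
      rw [e] at h4
      nlinarith
    linarith
  have hsum : ∑ r ∈ Finset.range t, (q (t - 1 - r) + q r) ≤ t * (10 * a ^ 5 * U) := by
    have h5 : ∑ r ∈ Finset.range t, (q (t - 1 - r) + q r)
        ≤ ∑ r ∈ Finset.range t, (10 * a ^ 5 * U) := by
      refine Finset.sum_le_sum fun r hr => ?_
      have hr' := Finset.mem_range.mp hr
      have h1 := hqb (t - 1 - r) (by omega)
      have h2 := hqb r (by omega)
      linarith
    simpa [Finset.sum_const, nsmul_eq_mul] using h5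
  rw [ha11]
  have h6 : a ^ 6 ≤ a ^ 11 := pow_le_pow_right₀ ha1 (by norm_num)
  have h7 : X ≤ 2 * a ^ 6 * U + 2 * (a ^ 6 * (10 * a ^ 5 * U)) := by
    rw [ha6]; linarith
  have e2 : a ^ 6 * (10 * a ^ 5 * U) = 10 * a ^ 11 * U := by ring
  rw [e2] at h7
  have h8 : 2 * a ^ 6 * U ≤ 2 * a ^ 11 * U := by
    apply mul_le_mul_of_nonneg_right _ hU; linarith
  have h11 : 0 ≤ a ^ 11 * U := by positivity
  nlinarith

theorem stCore_21 (hlib : StLib) (hs : StSmall) (h1 : StTwo) (h2 : StQ) : StCore := by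
  intro S _ _ μ P hc n f κ t ht
  have hL := hlib S μ P hc
  have hU : 0 ≤ U μ P f := (hs S μ P hc hL n f).2.2.2.2.2.2.1
  exact core_scalar_21 _ _ hU t ht _ (h1 S μ P hc hL n f κ t)
    (fun τ t' hτ => h2 S μ P hc hL n f τ t' hτ)

end Vale.Agent.P125.P59
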