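import Vale.Agent.P125.P59.Defs58
import Vale.Agent.P125.P59.Api_59

set_option linter.unusedSectionVars false
set_option linter.unusedVariables false

/-!
# P125 Poly: Step 4 (duality), statement `StDual`
-/

namespace Vale.Agent.P125.P59

open scoped BigOperators
open Vale.Agent.P125.Dich Vale.Agent.P125.P59api

section
variable {S : Type} [Fintype S] [DecidableEq S]

lemma op_eq_mv (P : Matrix S S ℝ) (k : ℕ) (g : S → ℝ) : op P k g = (P ^ k).mulVec g := rfl

lemma av_mul_eq_ip (μ g h : S → ℝ) : av μ (fun x => g x * h x) = ip μ g h := rfl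

variable {n : ℕ}

lemma dual_one_59 {μ : S → ℝ} {P : Matrix S S ℝ} (hP : IsChain μ P) (f : S → Fin n → ℝ)
    (τ s : ℕ) (k : Fin n) :
    av μ (fun b => om P f k b * op P s (fun z => |hh P f τ k z|) b)
      = -(1 / 2) * ∑ a, ∑ b, μ a * P a b *
          ((Mk P f τ s k b - Mk P f τ s k a) * (F f k b - F f k a)) := by
  have hs := isChain_pow hP s
  -- move `P^s`
  have e1 : av μ (fun b => om P f k b * op P s (fun z => |hh P f τ k z|) b)
      = ip μ (zt P f τ s k) (hh P f τ k) := by
    rw [av_mul_eq_ip, op_eq_mv, ip_mv hs]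
    unfold ip
    apply Finset.sum_congr rfl
    intro x _
    congr 1
    unfold zt
    rw [op_eq_mv]
    have : |hh P f τ k x| = (SignType.sign (hh P f τ k x) : ℝ) * hh P f τ k x :=
      (sign_mul_self (hh P f τ k x)).symm
    show (P ^ s).mulVec (om P f k) x * |hh P f τ k x| = _
    rw [this]
    ring
  -- telescoping
  have e2 : ∀ z, hh P f τ k z
      = ∑ i ∈ Finset.range τ, (P ^ i).mulVec (fun y => P.mulVec (F f k) y - F f k y) z := by
    intro z
    rw [tele]
    rfl
  have e3 : ip μ (zt P f τ s k) (hh P f τ k)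
      = ip μ (Mk P f τ s k) (fun y => P.mulVec (F f k) y - F f k y) := by
    have a1 : ip μ (zt P f τ s k) (hh P f τ k)
        = ∑ i ∈ Finset.range τ, ip μ (zt P f τ s k)
            ((P ^ i).mulVec (fun y => P.mulVec (F f k) y - F f k y)) := by
      unfold ip
      rw [Finset.sum_comm]
      apply Finset.sum_congr rfl
      intro x _
      rw [e2 x, Finset.mul_sum, Finset.mul_sum]
    have a2 : ip μ (Mk P f τ s k) (fun y => P.mulVec (F f k) y - F f k y)
        = ∑ i ∈ Finset.range τ, ip μ ((P ^ i).mulVec (zt P f τ s k))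
            (fun y => P.mulVec (F f k) y - F f k y) := by
      unfold ip
      rw [Finset.sum_comm]
      apply Finset.sum_congr rfl
      intro x _
      unfold Mk
      rw [Finset.sum_mul, Finset.mul_sum]
      rfl
    rw [a1, a2]
    apply Finset.sum_congr rfl
    intro i _
    exact ip_mv (isChain_pow hP i) _ _
  rw [e1, e3, dirichlet hP]

lemma abel_59 (f : S → Fin n → ℝ) (P : Matrix S S ℝ) (τ s : ℕ) (a b : S) :
    ∑ k, (Mk P f τ s k b - Mk P f τ s k a) * (F f k b - F f k a)
      = ∑ j, (f b j - f a j) * (UU P f τ s j b - UU P f τ s j a) := by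
  have h1 : ∀ k, F f k b - F f k a = ∑ i, if i ≤ k then (f b i - f a i) else 0 := by
    intro k
    unfold F
    rw [← Finset.sum_sub_distrib]
    apply Finset.sum_congr rfl
    intro i _
    split_ifs <;> simp
  have h2 : ∀ j, UU P f τ s j b - UU P f τ s j a
      = ∑ k, if j ≤ k then (Mk P f τ s k b - Mk P f τ s k a) else 0 := by
    intro j
    unfold UU
    rw [← Finset.sum_sub_distrib]
    apply Finset.sum_congr rfl
    intro i _
    split_ifs <;> simp
  simp only [h1, h2, Finset.mul_sum]
  rw [Finset.sum_comm]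
  apply Finset.sum_congr rfl
  intro j _
  apply Finset.sum_congr rfl
  intro k _
  split_ifs <;> ring

end

theorem stDual_59 : StDual := by
  intro S _ _ μ P hP _ n f τ s
  unfold Rr
  simp only [dual_one_59 hP]
  rw [← Finset.mul_sum]
  have e : ∑ k, ∑ a, ∑ b, μ a * P a b *
        ((Mk P f τ s k b - Mk P f τ s k a) * (F f k b - F f k a))
      = ∑ a, ∑ b, μ a * P a b * ∑ j, (f b j - f a j) * (UU P f τ s j b - UU P f τ s j a) := by
    rw [Finset.sum_comm]
    apply Finset.sum_congr rfl
    intro a _
    rw [Finset.sum_comm]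
    apply Finset.sum_congr rfl
    intro b _
    rw [← Finset.mul_sum, abel_59]
  rw [e]
  have h : -(∑ a, ∑ b, μ a * P a b * ∑ j, (f b j - f a j) * (UU P f τ s j b - UU P f τ s j a))
      ≤ ∑ a, ∑ b, μ a * P a b * ∑ j, w f a b j * |UU P f τ s j a - UU P f τ s j b| := by
    rw [← Finset.sum_neg_distrib]
    apply Finset.sum_le_sum
    intro a _
    rw [← Finset.sum_neg_distrib]
    apply Finset.sum_le_sum
    intro b _
    rw [← mul_neg]
    apply mul_le_mul_of_nonneg_left _ (mul_nonneg (hP.1 a) (hP.2.2.1 a b))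
    rw [← Finset.sum_neg_distrib]
    apply Finset.sum_le_sum
    intro j _
    unfold w
    rw [← abs_mul]
    refine le_trans (le_of_eq ?_) (le_abs_self _)
    ring
  linarith

end Vale.Agent.P125.P59
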