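import Vale.Agent.P125.P59.Defs58
import Vale.Agent.P125.P59.Api_59

set_option linter.unusedSectionVars false
set_option linter.unusedVariables false

/-!
# P125 Poly: Step 7 (energy along the path, pointwise), statement `StEn`
-/

namespace Vale.Agent.P125.P59

open scoped BigOperators
open Vale.Agent.P125.Dich Vale.Agent.P125.P59api

theorem stEn_59 : StEn := by
  intro S _ _ μ P hP _ n f τ s k y
  have hch : ∀ i, IsChain μ (P ^ i) := fun i => isChain_pow hP i
  set φ : S → ℝ := fun z => ∑ k', if k ≤ k' then zt P f τ s k' z else 0 with hφ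
  set v : S → ℝ := UU P f τ s k with hv
  set L : S → ℝ := LL P f s with hL
  set A : S → ℝ := AA P f τ s with hA
  have om_nonneg : ∀ k' z, 0 ≤ om P f k' z := by
    intro k' z
    unfold om
    exact Finset.sum_nonneg fun x _ => mul_nonneg (hP.2.2.1 z x) (abs_nonneg _)
  have sum_om : ∀ z, ∑ k', om P f k' z = lbar P f z := by
    intro z
    unfold om lbar ell
    rw [Finset.sum_comm]
    apply Finset.sum_congr rfl
    intro x _
    rw [Finset.mul_sum]
  have hLeq : ∀ z, L z = ∑ k', (P ^ s).mulVec (om P f k') z := by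
    intro z
    rw [← mv_sum]
    show (P ^ s).mulVec (lbar P f) z = _
    congr 1
    funext x
    exact (sum_om x).symm
  have hzt : ∀ k' z, |zt P f τ s k' z| ≤ (P ^ s).mulVec (om P f k') z := by
    intro k' z
    unfold zt
    rw [abs_mul]
    have h1 : |((SignType.sign (hh P f τ k' z) : SignType) : ℝ)| ≤ 1 := by
      rcases SignType.trichotomy (SignType.sign (hh P f τ k' z)) with h | h | h <;> rw [h] <;> simp
    have h2 : 0 ≤ op P s (om P f k') z := mv_nonneg (hch s) (om_nonneg k') z
    rw [abs_of_nonneg h2]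
    calc |((SignType.sign (hh P f τ k' z) : SignType) : ℝ)| * op P s (om P f k') z
        ≤ 1 * op P s (om P f k') z := mul_le_mul_of_nonneg_right h1 h2
      _ = (P ^ s).mulVec (om P f k') z := by rw [one_mul]; rfl
  have hφL : ∀ z, |φ z| ≤ L z := by
    intro z
    rw [hLeq z]
    refine (Finset.abs_sum_le_sum_abs _ _).trans (Finset.sum_le_sum ?_)
    intro k' _
    split_ifs
    · exact hzt k' z
    · rw [abs_zero]
      exact mv_nonneg (hch s) (om_nonneg k') z
  have hL0 : ∀ z, 0 ≤ L z := fun z => le_trans (abs_nonneg _) (hφL z)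
  have hvφ : ∀ z, v z = ∑ i ∈ Finset.range τ, (P ^ i).mulVec φ z := by
    intro z
    show UU P f τ s k z = _
    unfold UU Mk
    have h1 : ∀ i, (P ^ i).mulVec φ z
        = ∑ k', if k ≤ k' then (P ^ i).mulVec (zt P f τ s k') z else 0 := by
      intro i
      rw [hφ, mv_sum]
      apply Finset.sum_congr rfl
      intro k' _
      split_ifs
      · rfl
      · simp [mv_apply]
    simp only [h1]
    rw [Finset.sum_comm]
    apply Finset.sum_congr rfl
    intro k' _
    split_ifs
    · rfl
    · simp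
  have hvA : ∀ z, |v z| ≤ A z := by
    intro z
    rw [hvφ z]
    refine (Finset.abs_sum_le_sum_abs _ _).trans (Finset.sum_le_sum ?_)
    intro i _
    exact mv_abs_le_of (hch i) hφL z
  have hA0 : ∀ z, 0 ≤ A z := fun z => le_trans (abs_nonneg _) (hvA z)
  have hPv : ∀ z, P.mulVec v z - v z = (P ^ τ).mulVec φ z - φ z := by
    intro z
    have h1 : P.mulVec v z = ∑ i ∈ Finset.range τ, (P ^ (i + 1)).mulVec φ z := by
      have : v = fun z => ∑ i ∈ Finset.range τ, (P ^ i).mulVec φ z := funext hvφ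
      rw [this, mv_sum]
      apply Finset.sum_congr rfl
      intro i _
      rw [pow_mv_succ']
    rw [h1, hvφ z, ← Finset.sum_sub_distrib,
      Finset.sum_range_sub (fun i => (P ^ i).mulVec φ z) τ]
    simp
  have hPvb : ∀ z, |P.mulVec v z - v z| ≤ (P ^ τ).mulVec L z + L z := by
    intro z
    rw [hPv z]
    refine (abs_sub _ _).trans ?_
    exact add_le_add (mv_abs_le_of (hch τ) hφL z) (hφL z)
  have heps : ∀ a, epsk P f τ s k a ≤ (P.mulVec (fun y => v y ^ 2) a - v a ^ 2)
      + 2 * (A a * ((P ^ τ).mulVec L a + L a)) := by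
    intro a
    have h1 : epsk P f τ s k a = ∑ b, P a b * (v b - v a) ^ 2 := rfl
    rw [h1, gamma_eq hP]
    have h2 : |v a * (P.mulVec v a - v a)| ≤ A a * ((P ^ τ).mulVec L a + L a) := by
      rw [abs_mul]
      exact mul_le_mul (hvA a) (hPvb a) (abs_nonneg _) (hA0 a)
    have h3 := neg_abs_le (v a * (P.mulVec v a - v a))
    linarith
  have hsum : ∑ i ∈ Finset.range τ, op P (i + s) (epsk P f τ s k) y
      ≤ ∑ i ∈ Finset.range τ, (((P ^ (i + 1 + s)).mulVec (fun y => v y ^ 2) y
          - (P ^ (i + s)).mulVec (fun y => v y ^ 2) y)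
        + 2 * (P ^ (i + s)).mulVec (fun a => A a * ((P ^ τ).mulVec L a + L a)) y) := by
    apply Finset.sum_le_sum
    intro i _
    have h1 := mv_mono (hch (i + s)) heps y
    have h2 : (P ^ (i + s)).mulVec (fun a => (P.mulVec (fun y => v y ^ 2) a - v a ^ 2)
        + 2 * (A a * ((P ^ τ).mulVec L a + L a))) y
        = ((P ^ (i + 1 + s)).mulVec (fun y => v y ^ 2) y
          - (P ^ (i + s)).mulVec (fun y => v y ^ 2) y)
        + 2 * (P ^ (i + s)).mulVec (fun a => A a * ((P ^ τ).mulVec L a + L a)) y := by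
      rw [mv_add, mv_sub, mv_smul]
      have e : i + 1 + s = (i + s) + 1 := by ring
      rw [e, pow_mv_succ]
    rw [h2] at h1
    exact h1
  refine hsum.trans ?_
  rw [Finset.sum_add_distrib, ← Finset.mul_sum,
    Finset.sum_range_sub (fun i => (P ^ (i + s)).mulVec (fun y => v y ^ 2) y) τ]
  have h5 : (P ^ (τ + s)).mulVec (fun y => v y ^ 2) y ≤ (P ^ (s + τ)).mulVec (fun z => A z ^ 2) y := by
    rw [add_comm τ s]
    apply mv_mono (hch (s + τ))
    intro z
    have := hvA z
    rw [← sq_abs (v z)]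
    exact pow_le_pow_left₀ (abs_nonneg _) this 2
  have h6 : 0 ≤ (P ^ (0 + s)).mulVec (fun y => v y ^ 2) y :=
    mv_nonneg (hch (0 + s)) (fun z => sq_nonneg _) y
  have h7 : BB P f τ s y = (P ^ (s + τ)).mulVec (fun z => A z ^ 2) y
      + 2 * ∑ i ∈ Finset.range τ,
        (P ^ (i + s)).mulVec (fun a => A a * ((P ^ τ).mulVec L a + L a)) y := rfl
  rw [h7]
  linarith

end Vale.Agent.P125.P59
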