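import Vale.Agent.P125.P59.Defs58

set_option linter.unusedSectionVars false
set_option linter.unusedVariables false

/-! # P125 Poly: the remainder of the block decomposition (StRem) -/

namespace Vale.Agent.P125.P59

open scoped BigOperators
open Vale.Agent.P125.Dich

theorem stRem_11 (hs : StSmall) (h1 : StTriv1) : StRem := by
  intro S _ _ μ P hc hL n f m ρ
  obtain ⟨hom0, homsum, hlb0, _, _, hlb2, hU0, _, _, _⟩ := hs S μ P hc hL n f
  set T : S → ℝ := fun z => ∑ i ∈ Finset.range ρ, op P i (lbar P f) z with hT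
  have hAk : ∀ k b, Ak P f (m + ρ) k b ≤ Ak P f m k b + op P m T b := by
    intro k b
    have e1 : Ak P f (m + ρ) k b =
        ∑ z, (P ^ m) b z * ∑ y, (P ^ ρ) z y * |F f k y - F f k b| := by
      unfold Ak
      simp only [hL.pw_add m ρ b, Finset.sum_mul, Finset.mul_sum]
      rw [Finset.sum_comm]
      exact Finset.sum_congr rfl fun z _ => Finset.sum_congr rfl fun y _ => by ring
    rw [e1]
    have e2 : ∀ z, ∑ y, (P ^ ρ) z y * |F f k y - F f k b| ≤ |F f k z - F f k b| + T z := by
      intro z
      have h3 : ∀ y, (P ^ ρ) z y * |F f k y - F f k b| ≤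
          (P ^ ρ) z y * |F f k y - F f k z| + (P ^ ρ) z y * |F f k z - F f k b| := by
        intro y
        rw [← mul_add]
        apply mul_le_mul_of_nonneg_left _ (hL.pw_nonneg ρ z y)
        have e : F f k y - F f k b = (F f k y - F f k z) + (F f k z - F f k b) := by ring
        rw [e]
        exact abs_add_le _ _
      refine (Finset.sum_le_sum fun y _ => h3 y).trans ?_
      rw [Finset.sum_add_distrib, ← Finset.sum_mul, hL.pw_sum ρ z, one_mul]
      have h4 := h1 S μ P hc hL n f k ρ z
      unfold Ak at h4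
      linarith
    unfold Ak op
    rw [← Finset.sum_add_distrib]
    refine Finset.sum_le_sum fun z _ => ?_
    rw [← mul_add]
    exact mul_le_mul_of_nonneg_left (e2 z) (hL.pw_nonneg m b z)
  have hQ : Qsum μ P f (m + ρ) ≤ Qsum μ P f m +
      ∑ k, av μ (fun b => om P f k b * op P m T b) := by
    unfold Qsum Qk
    rw [← Finset.sum_add_distrib]
    refine Finset.sum_le_sum fun k _ => ?_
    unfold av
    rw [← Finset.sum_add_distrib]
    refine Finset.sum_le_sum fun b _ => ?_
    rw [← mul_add, ← mul_add]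
    exact mul_le_mul_of_nonneg_left (mul_le_mul_of_nonneg_left (hAk k b) (hom0 k b))
      (hL.mu_nonneg b)
  have e3 : ∑ k, av μ (fun b => om P f k b * op P m T b) =
      av μ (fun b => lbar P f b * op P m T b) := by
    unfold av
    rw [Finset.sum_comm]
    refine Finset.sum_congr rfl fun b _ => ?_
    beta_reduce
    rw [← homsum b, Finset.sum_mul, Finset.mul_sum]
  have e4 : ∀ b, op P m T b = ∑ i ∈ Finset.range ρ, op P (m + i) (lbar P f) b := by
    intro b
    rw [hT, hL.op_sum ℕ (Finset.range ρ) m (fun i => op P i (lbar P f)) b]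
    refine Finset.sum_congr rfl fun i _ => ?_
    rw [hL.op_op]
  have e5 : av μ (fun b => lbar P f b * op P m T b) =
      ∑ i ∈ Finset.range ρ, av μ (fun b => lbar P f b * op P (m + i) (lbar P f) b) := by
    unfold av
    rw [Finset.sum_comm]
    refine Finset.sum_congr rfl fun b _ => ?_
    beta_reduce
    rw [e4 b, Finset.mul_sum, Finset.mul_sum]
  have h6 : ∀ i, av μ (fun b => lbar P f b * op P (m + i) (lbar P f) b) ≤ U μ P f := by
    intro i
    refine (hL.av_cs (lbar P f) (op P (m + i) (lbar P f))).trans ?_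
    have h7 : av μ (fun x => op P (m + i) (lbar P f) x ^ 2) ≤ U μ P f := by
      refine (hL.av_mono _ _ (fun x => hL.sq_op (m + i) (lbar P f) x)).trans ?_
      rw [hL.av_op]
      exact hlb2
    have h8 := Real.sqrt_le_sqrt hlb2
    have h9 := Real.sqrt_le_sqrt h7
    calc Real.sqrt (av μ fun x => lbar P f x ^ 2) *
          Real.sqrt (av μ fun x => op P (m + i) (lbar P f) x ^ 2)
        ≤ Real.sqrt (U μ P f) * Real.sqrt (U μ P f) :=
          mul_le_mul h8 h9 (Real.sqrt_nonneg _) (Real.sqrt_nonneg _)
      _ = U μ P f := Real.mul_self_sqrt hU0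
  have h10 : ∑ i ∈ Finset.range ρ, av μ (fun b => lbar P f b * op P (m + i) (lbar P f) b) ≤
      (ρ : ℝ) * U μ P f := by
    refine (Finset.sum_le_sum fun i _ => h6 i).trans ?_
    simp
  rw [e3, e5] at hQ
  linarith

end Vale.Agent.P125.P59
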