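import Vale.Agent.P125.P59.Defs58

set_option linter.unusedSectionVars false
set_option linter.unusedVariables false

/-!
# P125 Poly: the basic calculus of `op`, `av` (subtask LIB)
-/

namespace Vale.Agent.P125.P59

open scoped BigOperators
open Vale.Agent.P125.Dich

/-- weighted Cauchy-Schwarz, square form -/
lemma wcs_16 {ι : Type} (s : Finset ι) (m a b : ι → ℝ) (hm : ∀ i ∈ s, 0 ≤ m i) :
    (∑ i ∈ s, m i * (a i * b i)) ^ 2 ≤ (∑ i ∈ s, m i * a i ^ 2) * (∑ i ∈ s, m i * b i ^ 2) := by
  have h := Finset.sum_mul_sq_le_sq_mul_sq s (fun i => Real.sqrt (m i) * a i)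
    (fun i => Real.sqrt (m i) * b i)
  have e1 : ∑ i ∈ s, (Real.sqrt (m i) * a i) * (Real.sqrt (m i) * b i)
      = ∑ i ∈ s, m i * (a i * b i) := by
    refine Finset.sum_congr rfl fun i hi => ?_
    have := Real.mul_self_sqrt (hm i hi)
    calc (Real.sqrt (m i) * a i) * (Real.sqrt (m i) * b i)
        = (Real.sqrt (m i) * Real.sqrt (m i)) * (a i * b i) := by ring
      _ = m i * (a i * b i) := by rw [this]
  have e2 : ∀ c : ι → ℝ, ∑ i ∈ s, (Real.sqrt (m i) * c i) ^ 2 = ∑ i ∈ s, m i * c i ^ 2 := by
    intro c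
    refine Finset.sum_congr rfl fun i hi => ?_
    have := Real.mul_self_sqrt (hm i hi)
    calc (Real.sqrt (m i) * c i) ^ 2
        = (Real.sqrt (m i) * Real.sqrt (m i)) * c i ^ 2 := by ring
      _ = m i * c i ^ 2 := by rw [this]
  rw [e1, e2 a, e2 b] at h
  exact h

theorem stLib_16 : StLib := by
  intro S _ _ μ P hc
  have hk : ∀ k, IsChain μ (P ^ k) := fun k => isChain_pow hc k
  have hμ0 : ∀ x, 0 ≤ μ x := hc.1
  have hμ1 : ∑ x, μ x = 1 := hc.2.1
  have h0 : ∀ k x y, 0 ≤ (P ^ k) x y := fun k => (hk k).2.2.1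
  have h1 : ∀ k x, ∑ y, (P ^ k) x y = 1 := fun k => (hk k).2.2.2.1
  have hr : ∀ k x y, μ x * (P ^ k) x y = μ y * (P ^ k) y x := fun k => (hk k).2.2.2.2
  have hadd : ∀ a b x y, (P ^ (a + b)) x y = ∑ z, (P ^ a) x z * (P ^ b) z y := by
    intro a b x y
    rw [pow_add, Matrix.mul_apply]
  refine
    { mu_nonneg := hμ0
      mu_sum := hμ1
      pw_nonneg := h0
      pw_sum := h1
      pw_rev := hr
      pw_add := hadd
      op_zero := ?_
      op_one := ?_
      op_op := ?_
      op_mono := ?_
      op_add := ?_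
      op_sub := ?_
      op_smul := ?_
      op_sum := ?_
      op_const := ?_
      abs_op := ?_
      sq_op := ?_
      av_op := ?_
      av_adj := ?_
      av_mono := ?_
      av_cs := ?_ }
  · intro g
    funext x
    simp [op, Matrix.one_apply]
  · intro g x
    simp [op]
  · intro a b g
    funext x
    simp only [op]
    calc ∑ y, (P ^ a) x y * ∑ z, (P ^ b) y z * g z
        = ∑ y, ∑ z, (P ^ a) x y * (P ^ b) y z * g z := by
          refine Finset.sum_congr rfl fun y _ => ?_
          rw [Finset.mul_sum]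
          refine Finset.sum_congr rfl fun z _ => by ring
      _ = ∑ z, ∑ y, (P ^ a) x y * (P ^ b) y z * g z := Finset.sum_comm
      _ = ∑ z, (P ^ (a + b)) x z * g z := by
          refine Finset.sum_congr rfl fun z _ => ?_
          rw [hadd, Finset.sum_mul]
  · intro k g h hgh x
    simp only [op]
    exact Finset.sum_le_sum fun y _ => mul_le_mul_of_nonneg_left (hgh y) (h0 k x y)
  · intro k g h x
    simp only [op, mul_add, Finset.sum_add_distrib]
  · intro k g h x
    simp only [op, mul_sub, Finset.sum_sub_distrib]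
  · intro k c g x
    simp only [op]
    rw [Finset.mul_sum]
    refine Finset.sum_congr rfl fun y _ => by ring
  · intro ι s k g x
    simp only [op]
    calc ∑ y, (P ^ k) x y * ∑ i ∈ s, g i y
        = ∑ y, ∑ i ∈ s, (P ^ k) x y * g i y := by
          refine Finset.sum_congr rfl fun y _ => ?_
          rw [Finset.mul_sum]
      _ = ∑ i ∈ s, ∑ y, (P ^ k) x y * g i y := Finset.sum_comm
  · intro k c x
    simp only [op]
    rw [← Finset.sum_mul, h1, one_mul]
  · intro k g x
    simp only [op]
    refine (Finset.abs_sum_le_sum_abs _ _).trans (le_of_eq ?_)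
    refine Finset.sum_congr rfl fun y _ => ?_
    rw [abs_mul, abs_of_nonneg (h0 k x y)]
  · intro k g x
    simp only [op]
    have h := wcs_16 Finset.univ (fun y => (P ^ k) x y) (fun _ => 1) g (fun y _ => h0 k x y)
    simp only [one_mul, one_pow, mul_one] at h
    rw [h1, one_mul] at h
    exact h
  · intro k g
    simp only [av, op]
    calc ∑ x, μ x * ∑ y, (P ^ k) x y * g y
        = ∑ x, ∑ y, μ y * (P ^ k) y x * g y := by
          refine Finset.sum_congr rfl fun x _ => ?_
          rw [Finset.mul_sum]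
          refine Finset.sum_congr rfl fun y _ => ?_
          rw [← mul_assoc, hr]
      _ = ∑ y, ∑ x, μ y * (P ^ k) y x * g y := Finset.sum_comm
      _ = ∑ y, μ y * g y := by
          refine Finset.sum_congr rfl fun y _ => ?_
          rw [← Finset.sum_mul, ← Finset.mul_sum, h1, mul_one]
  · intro k g h
    simp only [av, op]
    calc ∑ x, μ x * (g x * ∑ y, (P ^ k) x y * h y)
        = ∑ x, ∑ y, μ y * (P ^ k) y x * (g x * h y) := by
          refine Finset.sum_congr rfl fun x _ => ?_
          rw [Finset.mul_sum, Finset.mul_sum]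
          refine Finset.sum_congr rfl fun y _ => ?_
          rw [← hr k x y]
          ring
      _ = ∑ y, ∑ x, μ y * (P ^ k) y x * (g x * h y) := Finset.sum_comm
      _ = ∑ y, μ y * ((∑ x, (P ^ k) y x * g x) * h y) := by
          refine Finset.sum_congr rfl fun y _ => ?_
          rw [Finset.sum_mul, Finset.mul_sum]
          refine Finset.sum_congr rfl fun x _ => by ring
  · intro g h hgh
    simp only [av]
    exact Finset.sum_le_sum fun x _ => mul_le_mul_of_nonneg_left (hgh x) (hμ0 x)
  · intro g h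
    simp only [av]
    have hw := wcs_16 Finset.univ μ g h (fun x _ => hμ0 x)
    have hA : 0 ≤ ∑ x, μ x * g x ^ 2 :=
      Finset.sum_nonneg fun x _ => mul_nonneg (hμ0 x) (sq_nonneg _)
    have hB : 0 ≤ ∑ x, μ x * h x ^ 2 :=
      Finset.sum_nonneg fun x _ => mul_nonneg (hμ0 x) (sq_nonneg _)
    rw [← Real.sqrt_mul hA]
    exact Real.le_sqrt_of_sq_le hw

end Vale.Agent.P125.P59
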